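import Vale.Agent.P267.H399.Calc
import Vale.Agent.P267.H877.Trans
import Vale.Agent.P267.H757.NF5

/-!
# P267 / XM-K: curvature forms of norm functions (helper417)

`IsCurv N G`: `N` is a norm function and `G` is its curvature `(1,1)`-form `∂∂̄φ`, `N = ‖g‖² e^{-φ}`.
-/

set_option linter.unusedVariables false
set_option linter.unusedSectionVars false

open scoped Manifold ContDiff ComplexConjugate Matrix ComplexOrder Topology
open MeasureTheory Set Filter

noncomputable section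

namespace Vale.Agent.P267.H417

open FL XT H757

variable {X : Type*} [TopologicalSpace X] [ChartedSpace C2 X]

/-! ### `∂∂̄` is local -/

section ddb

variable {V : Type*} [NormedAddCommGroup V] [NormedSpace ℂ V]

theorem symm_eventually {e : Ch X} {x : X} (hx : x ∈ e.source) {P : X → Prop}
    (h : ∀ᶠ y in 𝓝 x, P y) : ∀ᶠ z in 𝓝 (e x), P (e.symm z) := by
  have hc : ContinuousAt e.symm (e x) := e.continuousAt_symm (e.map_source hx)
  have := hc.eventually (p := P) (by rw [e.left_inv hx]; exact h)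
  exact this

theorem loc0_congr {κ : ℤ} {e : Ch X} {x : X} (hx : x ∈ e.source) {u v : X → V}
    (h : u =ᶠ[𝓝 x] v) : loc0 κ e u =ᶠ[𝓝 (e x)] loc0 κ e v := by
  filter_upwards [symm_eventually hx h] with z hz
  rw [loc0, loc0, hz]

theorem loc1_congr {κ : ℤ} {e : Ch X} {x : X} (hx : x ∈ e.source) {u v : X → Fin 2 → V}
    (h : u =ᶠ[𝓝 x] v) : loc1 κ e u =ᶠ[𝓝 (e x)] loc1 κ e v := by
  filter_upwards [symm_eventually hx h] with z hz
  funext i
  rw [loc1, loc1, hz]

theorem dbar0_congr {κ : ℤ} {x : X} {u v : X → V} (h : u =ᶠ[𝓝 x] v) :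
    dbar0 κ u x = dbar0 κ v x := by
  funext i
  exact dzb_congr (loc0_congr (mem_chart_source C2 x) h) i

theorem dbar0_eventually {κ : ℤ} {x : X} {u v : X → V} (h : u =ᶠ[𝓝 x] v) :
    dbar0 κ u =ᶠ[𝓝 x] dbar0 κ v := h.eventuallyEq_nhds.mono fun _ hy => dbar0_congr hy

theorem ddb_congr {x : X} {u v : X → V} (h : u =ᶠ[𝓝 x] v) : ddb u x = ddb v x := by
  ext i j
  simp only [ddb, del1, Matrix.of_apply]
  refine dz_congr ?_ i
  exact (loc1_congr (mem_chart_source C2 x) (dbar0_eventually (κ := 0) h)).mono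
    fun z hz => congrFun hz j

variable [IsManifold 𝓘(ℂ, C2) ω X]

/-- `∂∂̄u` at `x` in the preferred chart, `u` being differentiable near `x` -/
theorem ddb_eq_chart {u : X → V} {x : X}
    (hu : ∀ᶠ z in 𝓝 (chartAt C2 x x),
      DifferentiableAt ℝ (fun w => u ((chartAt C2 x).symm w)) z) (i j : Fin 2) :
    ddb u x i j =
      dz i (fun z => dzb j (fun w => u ((chartAt C2 x).symm w)) z) (chartAt C2 x x) := by
  simp only [ddb, del1, Matrix.of_apply]
  refine dz_congr ?_ i
  filter_upwards [hu, (chartAt C2 x).open_target.mem_nhds (mem_chart_target C2 x)] with z hz hz'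
  have h0 : loc0 0 (chartAt C2 x) u = fun w => u ((chartAt C2 x).symm w) := LB.loc0_zero _ _
  rw [loc1_dbar0 (chart_mem_atlas C2 x) hz' (by rw [h0]; exact hz), h0]

theorem differentiable_eventually {u : C2 → V} {z : C2} (h : ContDiffAt ℝ ∞ u z) :
    ∀ᶠ w in 𝓝 z, DifferentiableAt ℝ u w := by
  have h1 : ContDiffAt ℝ 1 u z := h.of_le (by exact_mod_cast le_top)
  have h2 := h1.eventually (by simp)
  exact h2.mono fun w hw => hw.differentiableAt (by simp)

theorem one_add_one_le : (1 : WithTop ℕ∞) + 1 ≤ ∞ := by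
  have : ((2 : ℕ∞) : WithTop ℕ∞) ≤ ((⊤ : ℕ∞) : WithTop ℕ∞) := WithTop.coe_le_coe.2 le_top
  rw [one_add_one_eq_two]
  exact this

theorem differentiableAt_dzb {u : C2 → V} {z : C2} (h : ContDiffAt ℝ ∞ u z) (j : Fin 2) :
    DifferentiableAt ℝ (fun w => dzb j u w) z :=
  (contDiffAt_dzb (m := 1) h one_add_one_le j).differentiableAt (by simp)

theorem ddb_add {u v : X → V} {x : X}
    (h1 : ContDiffAt ℝ ∞ (fun w => u ((chartAt C2 x).symm w)) (chartAt C2 x x))
    (h2 : ContDiffAt ℝ ∞ (fun w => v ((chartAt C2 x).symm w)) (chartAt C2 x x)) :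
    ddb (fun y => u y + v y) x = ddb u x + ddb v x := by
  have hd1 := differentiable_eventually h1
  have hd2 := differentiable_eventually h2
  have hd3 : ∀ᶠ z in 𝓝 (chartAt C2 x x), DifferentiableAt ℝ
      (fun w => u ((chartAt C2 x).symm w) + v ((chartAt C2 x).symm w)) z := by
    filter_upwards [hd1, hd2] with z hz1 hz2
    exact hz1.add hz2
  ext i j
  rw [Matrix.add_apply, ddb_eq_chart hd3, ddb_eq_chart hd1, ddb_eq_chart hd2]
  have h3 : (fun z => dzb j (fun w => u ((chartAt C2 x).symm w) + v ((chartAt C2 x).symm w)) z)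
      =ᶠ[𝓝 (chartAt C2 x x)]
      fun z => dzb j (fun w => u ((chartAt C2 x).symm w)) z +
        dzb j (fun w => v ((chartAt C2 x).symm w)) z := by
    filter_upwards [hd1, hd2] with z hz1 hz2
    exact dzb_add hz1 hz2 j
  rw [dz_congr h3]
  exact dz_add (differentiableAt_dzb h1 j) (differentiableAt_dzb h2 j) i

theorem ddb_const_smul (c : ℂ) {u : X → V} {x : X}
    (h1 : ContDiffAt ℝ ∞ (fun w => u ((chartAt C2 x).symm w)) (chartAt C2 x x)) :
    ddb (fun y => c • u y) x = c • ddb u x := by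
  have hd1 := differentiable_eventually h1
  have hd3 : ∀ᶠ z in 𝓝 (chartAt C2 x x), DifferentiableAt ℝ
      (fun w => c • u ((chartAt C2 x).symm w)) z := by
    filter_upwards [hd1] with z hz1
    exact hz1.const_smul c
  ext i j
  rw [Matrix.smul_apply, ddb_eq_chart hd3, ddb_eq_chart hd1]
  have h3 : (fun z => dzb j (fun w => c • u ((chartAt C2 x).symm w)) z)
      =ᶠ[𝓝 (chartAt C2 x x)]
      fun z => c • dzb j (fun w => u ((chartAt C2 x).symm w)) z := by
    filter_upwards [hd1] with z hz1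
    exact dzb_const_smul c hz1 j
  rw [dz_congr h3]
  exact dz_const_smul c (differentiableAt_dzb h1 j) i

end ddb

/-! ### curvature forms of norm functions -/

section curv

/-- `G` is the curvature `(1,1)`-form of the norm function `N`: locally `N = ‖g‖² e^{-φ}` and
`G = ∂∂̄φ` -/
def IsCurv (N : X → ℝ) (G : X → Matrix (Fin 2) (Fin 2) ℂ) : Prop :=
  ∀ p, ∃ (U : Set X) (g : X → ℂ) (φ : X → ℝ), p ∈ U ∧ LocRep C2 N U g φ ∧
    ∀ x ∈ U, G x = ddb (fun y => (φ y : ℂ)) x

/-- real smooth functions, read in the preferred chart -/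
theorem contDiffAt_of_contMDiffOn {φ : X → ℝ} {U : Set X} (hU : IsOpen U)
    (hφ : ContMDiffOn 𝓘(ℝ, C2) 𝓘(ℝ) ∞ φ U) {x : X} (hx : x ∈ U) :
    ContDiffAt ℝ ∞ (fun w => (φ ((chartAt C2 x).symm w) : ℂ)) (chartAt C2 x x) := by
  have h1 : ContMDiffAt 𝓘(ℝ, C2) 𝓘(ℝ) ∞ φ x := hφ.contMDiffAt (hU.mem_nhds hx)
  rw [contMDiffAt_iff] at h1
  have h2 := h1.2
  simp only [mfld_simps, extChartAt, OpenPartialHomeomorph.extend] at h2
  have h3 : ContDiffAt ℝ ∞ (fun w => φ ((chartAt C2 x).symm w)) (chartAt C2 x x) :=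
    contDiffWithinAt_univ.1 h2
  exact Complex.ofRealCLM.contDiff.contDiffAt.comp _ h3

theorem contMDiff_of_reg0 [IsManifold 𝓘(ℂ, C2) ω X] {φ : X → ℝ} (h : Reg0 ∞ 0 fun x => (φ x : ℂ)) :
    ContMDiff 𝓘(ℝ, C2) 𝓘(ℝ) ∞ φ := by
  intro x
  have h1 := h.contDiffAt (chart_mem_atlas C2 x) (mem_chart_target C2 x)
  rw [LB.loc0_zero] at h1
  have h2 : ContDiffAt ℝ ∞ (fun w => φ ((chartAt C2 x).symm w)) (chartAt C2 x x) := by
    have := Complex.reCLM.contDiff.contDiffAt.comp (chartAt C2 x x) h1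
    exact this
  rw [contMDiffAt_iff]
  refine ⟨?_, ?_⟩
  · have h3 : ContinuousAt (fun w => φ ((chartAt C2 x).symm w)) (chartAt C2 x x) :=
      h2.continuousAt
    have h4 : ContinuousAt (fun y => φ ((chartAt C2 x).symm (chartAt C2 x y))) x :=
      ContinuousAt.comp (g := fun w => φ ((chartAt C2 x).symm w)) h3
        ((chartAt C2 x).continuousAt (mem_chart_source C2 x))
    refine h4.congr ?_
    filter_upwards [(chartAt C2 x).open_source.mem_nhds (mem_chart_source C2 x)] with y hy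
    rw [(chartAt C2 x).left_inv hy]
  · simp only [mfld_simps, extChartAt, OpenPartialHomeomorph.extend]
    exact contDiffWithinAt_univ.2 h2

theorem IsCurv.isNormFn {N : X → ℝ} {G : X → Matrix (Fin 2) (Fin 2) ℂ} (h : IsCurv N G) :
    IsNormFn C2 N := fun p => by
  obtain ⟨U, g, φ, hp, hr, -⟩ := h p
  exact ⟨U, g, φ, hp, hr⟩

variable [IsManifold 𝓘(ℂ, C2) ω X]

theorem IsCurv.mul {N N' : X → ℝ} {G G' : X → Matrix (Fin 2) (Fin 2) ℂ} (h : IsCurv N G)
    (h' : IsCurv N' G') : IsCurv (fun x => N x * N' x) (fun x => G x + G' x) := by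
  intro p
  obtain ⟨U, g, φ, hp, hr, hG⟩ := h p
  obtain ⟨U', g', φ', hp', hr', hG'⟩ := h' p
  refine ⟨U ∩ U', _, _, ⟨hp, hp'⟩, hr.mul hr', fun x hx => ?_⟩
  show G x + G' x = _
  rw [hG x hx.1, hG' x hx.2]
  have := ddb_add (u := fun y => (φ y : ℂ)) (v := fun y => (φ' y : ℂ))
    (contDiffAt_of_contMDiffOn hr.isOpen hr.smooth hx.1)
    (contDiffAt_of_contMDiffOn hr'.isOpen hr'.smooth hx.2)
  rw [← this]
  simp only [Complex.ofReal_add]

theorem isCurv_one : IsCurv (fun _ : X => (1 : ℝ)) (fun _ => 0) := by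
  intro p
  refine ⟨univ, fun _ => 1, fun _ => 0, mem_univ p, ⟨isOpen_univ, mdifferentiableOn_const,
    fun V _ _ hne => ⟨hne.some, hne.some_mem, one_ne_zero⟩, contMDiffOn_const,
    fun x _ => by simp⟩, fun x _ => ?_⟩
  ext i j
  rw [ddb_eq_chart (Eventually.of_forall fun z => differentiableAt_const _)]
  simp

/-- `e^{-φ}` for a global smooth function `φ` -/
theorem isCurv_exp {φ : X → ℝ} (hφ : Reg0 ∞ 0 fun x => (φ x : ℂ)) :
    IsCurv (fun x => Real.exp (-φ x)) (ddb fun y => (φ y : ℂ)) := by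
  intro p
  refine ⟨univ, fun _ => 1, φ, mem_univ p, ⟨isOpen_univ, mdifferentiableOn_const,
    fun V _ _ hne => ⟨hne.some, hne.some_mem, one_ne_zero⟩,
    (contMDiff_of_reg0 hφ).contMDiffOn, fun x _ => by simp⟩, fun x _ => rfl⟩

theorem IsCurv.congr {N N' : X → ℝ} {G G' : X → Matrix (Fin 2) (Fin 2) ℂ} (h : IsCurv N G)
    (hN : ∀ x, N' x = N x) (hG : ∀ x, G' x = G x) : IsCurv N' G' := by
  have e1 : N' = N := funext hN
  have e2 : G' = G := funext hG
  rw [e1, e2]
  exact h

theorem isCurv_prod {ι : Type*} (s : Finset ι) {N : ι → X → ℝ}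
    {G : ι → X → Matrix (Fin 2) (Fin 2) ℂ} (h : ∀ i ∈ s, IsCurv (N i) (G i)) :
    IsCurv (fun x => ∏ i ∈ s, N i x) (fun x => ∑ i ∈ s, G i x) := by
  classical
  induction s using Finset.induction_on with
  | empty => exact isCurv_one.congr (fun x => by simp) (fun x => by simp)
  | insert a s has ih =>
    simp only [Finset.prod_insert has, Finset.sum_insert has]
    exact (h a (Finset.mem_insert_self a s)).mul
      (ih (fun i hi => h i (Finset.mem_insert_of_mem hi)))

end curv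

end Vale.Agent.P267.H417
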