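import Vale.Agent.P267.H417.Curv

/-!
# P267 / XM-K: norm functions and chart maps: pull-back, descent (helper417)
-/

set_option linter.unusedVariables false
set_option linter.unusedSectionVars false

open scoped Manifold ContDiff ComplexConjugate Matrix ComplexOrder Topology
open MeasureTheory Set Filter

noncomputable section

namespace Vale.Agent.P267.H417

open FL XT H757

variable {Y X : Type*} [TopologicalSpace Y] [ChartedSpace C2 Y] [TopologicalSpace X]
  [ChartedSpace C2 X] [IsManifold 𝓘(ℂ, C2) ω X] [IsManifold 𝓘(ℂ, C2) ω Y]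

/-- a chart map is `e'.symm ∘ e` near `y` -/
theorem chartMap_eventually {q : Y → X} (hq : ChartMap q) (y : Y) :
    ∀ᶠ z in 𝓝 y, q z = (chartAt C2 (q y)).symm (chartAt C2 y z) := by
  have h1 : ∀ᶠ z in 𝓝 y, z ∈ (chartAt C2 y).source :=
    (chartAt C2 y).open_source.mem_nhds (mem_chart_source C2 y)
  have h2 := ((chartAt C2 y).continuousAt (mem_chart_source C2 y)).eventually (hq.symm_germ y)
  filter_upwards [h1, h2] with z hz1 hz2
  rw [hz2, (chartAt C2 y).left_inv hz1]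

/-- chart maps are local biholomorphisms -/
theorem chartMap_isLocalDiffeomorph {q : Y → X} (hq : ChartMap q) :
    IsLocalDiffeomorph 𝓘(ℂ, C2) 𝓘(ℂ, C2) ω q := by
  intro y
  obtain ⟨W, hW, hWo, hyW⟩ := eventually_nhds_iff.1 (chartMap_eventually hq y)
  set e := chartAt C2 y with he
  set e' := chartAt C2 (q y) with he'
  have hem : e ∈ IsManifold.maximalAtlas 𝓘(ℂ, C2) ω Y := IsManifold.chart_mem_maximalAtlas y
  have hem' : e' ∈ IsManifold.maximalAtlas 𝓘(ℂ, C2) ω X := IsManifold.chart_mem_maximalAtlas _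
  set Φ := (e.restr W).trans e'.symm with hΦ
  have hsrc : ∀ z ∈ Φ.source, z ∈ e.source ∧ z ∈ W := by
    intro z hz
    rw [hΦ, OpenPartialHomeomorph.trans_source] at hz
    have := hz.1
    rw [OpenPartialHomeomorph.restr_source, hWo.interior_eq] at this
    exact this
  have hsrc' : ∀ z ∈ Φ.source, e z ∈ e'.target := by
    intro z hz
    rw [hΦ, OpenPartialHomeomorph.trans_source] at hz
    exact hz.2
  have htgt : ∀ z ∈ Φ.target, z ∈ e'.source ∧ e' z ∈ e.target := by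
    intro z hz
    rw [hΦ, OpenPartialHomeomorph.trans_target] at hz
    refine ⟨hz.1, ?_⟩
    have := hz.2
    rw [mem_preimage, OpenPartialHomeomorph.restr_target] at this
    exact this.1
  have h1 : ContMDiffOn 𝓘(ℂ, C2) 𝓘(ℂ, C2) ω Φ Φ.source := by
    refine (contMDiffOn_symm_of_mem_maximalAtlas hem').comp
      ((contMDiffOn_of_mem_maximalAtlas hem).mono fun z hz => (hsrc z hz).1) ?_
    exact fun z hz => hsrc' z hz
  have h2 : ContMDiffOn 𝓘(ℂ, C2) 𝓘(ℂ, C2) ω Φ.symm Φ.target := by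
    refine (contMDiffOn_symm_of_mem_maximalAtlas hem).comp
      ((contMDiffOn_of_mem_maximalAtlas hem').mono fun z hz => (htgt z hz).1) ?_
    exact fun z hz => (htgt z hz).2
  refine ⟨⟨Φ.toPartialEquiv, Φ.open_source, Φ.open_target, h1, h2⟩, ?_, ?_⟩
  · show y ∈ Φ.source
    rw [hΦ, OpenPartialHomeomorph.trans_source, OpenPartialHomeomorph.restr_source,
      hWo.interior_eq]
    refine ⟨⟨mem_chart_source C2 y, hyW⟩, ?_⟩
    show e y ∈ e'.target
    rw [he, he', ← hq.apply_eq]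
    exact mem_chart_target C2 (q y)
  · intro z hz
    exact hW z (hsrc z hz).2

/-- curvature forms pull back under chart maps -/
theorem IsCurv.comp {N : X → ℝ} {G : X → Matrix (Fin 2) (Fin 2) ℂ} (h : IsCurv N G) {q : Y → X}
    (hq : ChartMap q) : IsCurv (fun y => N (q y)) (fun y => G (q y)) := by
  intro p
  have hπ := chartMap_isLocalDiffeomorph hq
  obtain ⟨U, g, φ, hpU, hr, hG⟩ := h (q p)
  refine ⟨univ ∩ q ⁻¹' U, _, _, ⟨mem_univ p, hpU⟩, hr.comp isOpen_univ
    (hπ.mdifferentiable (by simp)).mdifferentiableOn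
    ((contMDiff_real hπ.contMDiff).of_le le_top).contMDiffOn
    (fun B hB _ => hπ.isOpenMap B hB), fun x hx => ?_⟩
  show G (q x) = _
  rw [hG (q x) hx.2, ← hq.ddb_comp]

/-- local sections of chart maps -/
theorem exists_section {q : Y → X} (hq : ChartMap q) (y : Y) :
    ∃ (V : Set X) (σ : X → Y), IsOpen V ∧ q y ∈ V ∧ σ (q y) = y ∧ (∀ x ∈ V, q (σ x) = x) ∧
      ContinuousOn σ V := by
  obtain ⟨Φ, hyΦ, hΦ⟩ := chartMap_isLocalDiffeomorph hq y
  have hx : q y ∈ Φ.target := by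
    rw [hΦ hyΦ]
    exact Φ.toOpenPartialHomeomorph.map_source hyΦ
  refine ⟨Φ.target, Φ.symm, Φ.open_target, hx, ?_, ?_, ?_⟩
  · rw [hΦ hyΦ]
    exact Φ.toOpenPartialHomeomorph.left_inv hyΦ
  · intro x hx
    have h5 : Φ.symm x ∈ Φ.source := Φ.toOpenPartialHomeomorph.symm.map_source hx
    rw [hΦ h5]
    exact Φ.toOpenPartialHomeomorph.right_inv hx
  · exact Φ.symm.contMDiffOn.continuousOn

/-- descent of curvature forms along surjective chart maps -/
theorem IsCurv.descend {N : X → ℝ} {G : X → Matrix (Fin 2) (Fin 2) ℂ} {q : Y → X}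
    (hq : ChartMap q) (hs : Function.Surjective q)
    (h : IsCurv (fun y => N (q y)) (fun y => G (q y))) : IsCurv N G := by
  intro p
  obtain ⟨y, rfl⟩ := hs p
  obtain ⟨V, σ, hV, hyV, hσy, hqσ, hσc⟩ := exists_section hq y
  have hπ := chartMap_isLocalDiffeomorph hq
  obtain ⟨hσ, hσo⟩ := section_props hπ hV hσc hqσ
  obtain ⟨U, g, φ, hyU, hr, hG⟩ := h y
  have hrep := hr.comp hV (hσ.mdifferentiableOn (by simp)) ((contMDiffOn_real hσ).of_le le_top) hσo
  refine ⟨V ∩ σ ⁻¹' U, _, _, ⟨hyV, by rw [mem_preimage, hσy]; exact hyU⟩,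
    hrep.congr fun x hx => by rw [hqσ x hx.1], fun x hx => ?_⟩
  have h1 := hG (σ x) hx.2
  simp only [hqσ x hx.1] at h1
  rw [h1]
  -- `φ ∘ σ ∘ q = φ` near `σ x`
  have h2 : ddb (fun z => ((φ (σ (q z)) : ℝ) : ℂ)) (σ x) = ddb (fun y => (φ (σ y) : ℂ)) (q (σ x)) :=
    hq.ddb_comp (fun y => (φ (σ y) : ℂ)) (σ x)
  rw [hqσ x hx.1] at h2
  rw [← h2]
  refine ddb_congr ?_
  have h3 : IsOpen (σ '' (V ∩ σ ⁻¹' U)) := hσo _ (hσc.isOpen_inter_preimage hV hr.isOpen)
    inter_subset_left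
  filter_upwards [h3.mem_nhds ⟨x, hx, rfl⟩]
  rintro _ ⟨w, hw, rfl⟩
  rw [hqσ w hw.1]

end Vale.Agent.P267.H417
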